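import Mathlib
import Vale.Agent.Lib.P037B.Main

namespace Vale.Agent.Results.P037.BlockPatterns

open Vale.Agent.Lib.P037B

/-- Polynomial removal for all blow-ups of the two 2 x 2 patterns `[[1,0],[0,1]]` and
`[[0,1],[1,0]]`.  Let `0 < p < k` and `0 < q < k`, and let `H` be either the block pattern
`blockPattern k p q` (the `k x k` pattern with ones exactly in the top left `p x q` block and in
the bottom right `(k-p) x (k-q)` block) or the mirrored pattern `antiBlockPattern k p q` (ones
exactly in the top right `p x (k-q)` block and in the bottom left `(k-p) x q` block).  There is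
a constant `c > 0`, depending only on `k`, `p`, `q`, such that for every `n`, every `n x n`
binary matrix `A` and every `0 < ε ≤ 1`: if every `H`-free `n x n` binary matrix `B` differs from
`A` in at least `ε * n ^ 2` entries (that is, `A` is `ε`-far from `H`-free), then the number of
ordered copies of `H` in `A` is at least `c * ε ^ C * n ^ (2 * k)` with
`C = 92 * k * p * (k - p) * q * (k - q)`. -/
theorem result (k p q : ℕ) (hp : 0 < p) (hpk : p < k) (hq : 0 < q) (hqk : q < k) :
    ∃ c : ℝ, 0 < c ∧ ∀ (n : ℕ) (A : Fin n → Fin n → Bool) (ε : ℝ), 0 < ε → ε ≤ 1 →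
      ((∀ B : Fin n → Fin n → Bool, Free (blockPattern k p q) B →
          ε * (n : ℝ) ^ 2 ≤ (entryDiff A B : ℝ)) →
        c * ε ^ (92 * k * (p * (k - p) * q * (k - q))) * (n : ℝ) ^ (2 * k)
          ≤ (copies (blockPattern k p q) A : ℝ)) ∧
      ((∀ B : Fin n → Fin n → Bool, Free (antiBlockPattern k p q) B →
          ε * (n : ℝ) ^ 2 ≤ (entryDiff A B : ℝ)) →
        c * ε ^ (92 * k * (p * (k - p) * q * (k - q))) * (n : ℝ) ^ (2 * k)
          ≤ (copies (antiBlockPattern k p q) A : ℝ)) :=
  block_removal k p q hp hpk hq hqk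

end Vale.Agent.Results.P037.BlockPatterns
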