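import Mathlib
import Vale.Agent.Lib.P037B.Removal
import Vale.Agent.Lib.P037B.Master
import Vale.Agent.Lib.P037G.Main

namespace Vale.Agent.Results.P037.CornerPatterns

open Vale.Agent.Lib.P037B

/-- The corner block pattern: the `k x k` binary pattern whose entry `(i, j)` (rows and columns
numbered from 0) is 0 exactly when `i < p` and `j < q`, and 1 otherwise.  It is the 2 x 2 pattern
`[[0,1],[1,1]]` with its first row repeated `p` times, its second row `k - p` times, its first
column `q` times and its second column `k - q` times; for `k = 2`, `p = q = 1` it is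
`[[0,1],[1,1]]` itself. -/
def cornerPattern (k p q : ℕ) : Fin k → Fin k → Bool :=
  fun i j => decide (p ≤ (i : ℕ) ∨ q ≤ (j : ℕ))

theorem cornerPattern_eq (k p q : ℕ) :
    cornerPattern k p q = blow Vale.Agent.Lib.P037G.G0 k p q := by
  funext i j
  unfold cornerPattern blow Vale.Agent.Lib.P037G.G0
  by_cases hi : (i : ℕ) < p <;> by_cases hj : (j : ℕ) < q <;> simp [hi, hj] <;> omega

theorem cornerPattern_two : cornerPattern 2 1 1 = Vale.Agent.Lib.P037G.G0 := by
  funext i j
  fin_cases i <;> fin_cases j <;> rfl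

/-- The quadruple form of the removal bound for the corner pattern. -/
theorem corner_base (n : ℕ) (A : Fin n → Fin n → Bool) (ε : ℝ) (hε : 0 < ε) (hε1 : ε ≤ 1)
    (hfar : ∀ B : Fin n → Fin n → Bool,
      (∀ r1 r2 c1 c2, ¬ Quad Vale.Agent.Lib.P037G.G0 B r1 r2 c1 c2) →
        ε * (n : ℝ) ^ 2 ≤ (entryDiff A B : ℝ)) :
    1 / (676 * 29 ^ 16) * ε ^ 18 * (n : ℝ) ^ 4 ≤ (qcount Vale.Agent.Lib.P037G.G0 A : ℝ) := by
  rw [← Vale.Agent.Lib.P037G.NG_eq_qcount]
  exact Vale.Agent.Lib.P037G.corner_removal n A ε hε hε1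
    (fun B hB => hfar B ((Vale.Agent.Lib.P037G.gfree_iff B).mp hB))

/-- Polynomial removal for the corner pattern `[[0,1],[1,1]]` and all its blow-ups.

(1) Let `G = cornerPattern 2 1 1`, the 2 x 2 pattern `[[0,1],[1,1]]`.  For every `n`, every
`n x n` binary matrix `A` and every `0 < ε ≤ 1`: if every `G`-free `n x n` binary matrix `B`
differs from `A` in at least `ε * n ^ 2` entries (that is, `A` is `ε`-far from `G`-free), then
the number of ordered copies of `G` in `A` is at least `ε ^ 18 * n ^ 4 / (676 * 29 ^ 16)`.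

(2) Let `0 < p < k` and `0 < q < k`, and let `H = cornerPattern k p q` be the `k x k` pattern
with zeros exactly in the top left `p x q` block.  There is a constant `c > 0`, depending only on
`k`, `p`, `q`, such that for every `n`, every `n x n` binary matrix `A` and every `0 < ε ≤ 1`: if
`A` is `ε`-far from `H`-free, then the number of ordered copies of `H` in `A` is at least
`c * ε ^ C * n ^ (2 * k)` with `C = 36 * k * p * (k - p) * q * (k - q)`. -/
theorem result :
    (∀ (n : ℕ) (A : Fin n → Fin n → Bool) (ε : ℝ), 0 < ε → ε ≤ 1 →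
      (∀ B : Fin n → Fin n → Bool, Free (cornerPattern 2 1 1) B →
          ε * (n : ℝ) ^ 2 ≤ (entryDiff A B : ℝ)) →
        1 / (676 * 29 ^ 16) * ε ^ 18 * (n : ℝ) ^ 4
          ≤ (copies (cornerPattern 2 1 1) A : ℝ)) ∧
    (∀ k p q : ℕ, 0 < p → p < k → 0 < q → q < k →
      ∃ c : ℝ, 0 < c ∧ ∀ (n : ℕ) (A : Fin n → Fin n → Bool) (ε : ℝ), 0 < ε → ε ≤ 1 →
        (∀ B : Fin n → Fin n → Bool, Free (cornerPattern k p q) B →
            ε * (n : ℝ) ^ 2 ≤ (entryDiff A B : ℝ)) →
          c * ε ^ (36 * k * (p * (k - p) * q * (k - q))) * (n : ℝ) ^ (2 * k)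
            ≤ (copies (cornerPattern k p q) A : ℝ)) := by
  constructor
  · intro n A ε hε hε1 hfar
    rw [cornerPattern_two] at hfar ⊢
    have h1 := corner_base n A ε hε hε1
      (fun B hB => hfar B (free_two_of_qfree Vale.Agent.Lib.P037G.G0 B hB))
    have h2 : (qcount Vale.Agent.Lib.P037G.G0 A : ℝ) ≤ (copies Vale.Agent.Lib.P037G.G0 A : ℝ) := by
      exact_mod_cast qcount_le_copies_two Vale.Agent.Lib.P037G.G0 A
    exact le_trans h1 h2
  · intro k p q hp hpk hq hqk
    obtain ⟨c, hc, h⟩ := blowup_removal Vale.Agent.Lib.P037G.G0 (1 / (676 * 29 ^ 16))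
      (by positivity) 18 corner_base k p q hp hpk hq hqk
    have hexp : 36 * k * (p * (k - p) * q * (k - q))
        = 18 * (p * (k - p) * q * (k - q)) * (2 * k) := by
      ring
    refine ⟨c, hc, ?_⟩
    intro n A ε hε hε1 hfar
    rw [hexp, cornerPattern_eq]
    rw [cornerPattern_eq] at hfar
    exact h n A ε hε hε1 hfar

end Vale.Agent.Results.P037.CornerPatterns
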