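import Mathlib
import Vale.Agent.Lib.P037B.Master
import Vale.Agent.Lib.P037B.Sym
import Vale.Agent.Lib.P037G.Main

namespace Vale.Agent.Results.P037.TwoByTwo

open Vale.Agent.Lib.P037B

/-- The blow-up of the 2 x 2 pattern `H₀` to a `k x k` pattern: entry `(i, j)` (rows and columns
numbered from 0) is the entry of `H₀` in row `0` if `i < p` and row `1` otherwise, and in column
`0` if `j < q` and column `1` otherwise.  So the first row of `H₀` is repeated `p` times, the
second row `k - p` times, the first column `q` times and the second column `k - q` times. -/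
def blowUp (H₀ : Fin 2 → Fin 2 → Bool) (k p q : ℕ) : Fin k → Fin k → Bool :=
  fun i j => H₀ (if (i : ℕ) < p then 0 else 1) (if (j : ℕ) < q then 0 else 1)

theorem blowUp_eq (H₀ : Fin 2 → Fin 2 → Bool) (k p q : ℕ) : blowUp H₀ k p q = blow H₀ k p q :=
  rfl

/-- Polynomial removal for every 2 x 2 binary pattern with two distinct rows and two distinct
columns, and for all square blow-ups of these patterns.

Let `H₀` be a 2 x 2 binary pattern whose two rows differ and whose two columns differ: one of
`[[1,0],[0,1]]`, `[[0,1],[1,0]]`, or one of the eight patterns with exactly one or exactly three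
ones.

(1) There is `c > 0` such that for every `n`, every `n x n` binary matrix `A` and every
`0 < ε ≤ 1`: if every `H₀`-free `n x n` binary matrix `B` differs from `A` in at least `ε * n ^ 2`
entries, then `A` contains at least `c * ε ^ 46 * n ^ 4` ordered copies of `H₀`.

(2) The same holds for every blow-up `blowUp H₀ k p q` with `0 < p < k` and `0 < q < k` (the
`k x k` pattern obtained from `H₀` by repeating its first row `p` times, its second row `k - p`
times, its first column `q` times and its second column `k - q` times), with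
`c * ε ^ (92 * k * p * (k - p) * q * (k - q)) * n ^ (2 * k)` ordered copies. -/
theorem result (H₀ : Fin 2 → Fin 2 → Bool) (hrows : H₀ 0 ≠ H₀ 1)
    (hcols : (fun i => H₀ i 0) ≠ (fun i => H₀ i 1)) :
    (∃ c : ℝ, 0 < c ∧ ∀ (n : ℕ) (A : Fin n → Fin n → Bool) (ε : ℝ), 0 < ε → ε ≤ 1 →
      (∀ B : Fin n → Fin n → Bool, Free H₀ B → ε * (n : ℝ) ^ 2 ≤ (entryDiff A B : ℝ)) →
      c * ε ^ 46 * (n : ℝ) ^ 4 ≤ (copies H₀ A : ℝ)) ∧
    (∀ k p q : ℕ, 0 < p → p < k → 0 < q → q < k →
      ∃ c : ℝ, 0 < c ∧ ∀ (n : ℕ) (A : Fin n → Fin n → Bool) (ε : ℝ), 0 < ε → ε ≤ 1 →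
        (∀ B : Fin n → Fin n → Bool, Free (blowUp H₀ k p q) B →
          ε * (n : ℝ) ^ 2 ≤ (entryDiff A B : ℝ)) →
        c * ε ^ (92 * k * (p * (k - p) * q * (k - q))) * (n : ℝ) ^ (2 * k)
          ≤ (copies (blowUp H₀ k p q) A : ℝ)) := by
  have hG : QRem ![![false, true], ![true, true]] (1 / (676 * 29 ^ 16 : ℝ)) 18 := by
    intro n A ε hε hε1 hfar
    have h1 := Vale.Agent.Lib.P037G.corner_removal n A ε hε hε1
      (fun B hB => hfar B ((Vale.Agent.Lib.P037G.gfree_iff B).mp hB))
    rw [Vale.Agent.Lib.P037G.NG_eq_qcount] at h1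
    exact h1
  obtain ⟨c, hc, h⟩ := two_by_two_base (1 / (676 * 29 ^ 16 : ℝ)) (by positivity) 18 (by norm_num)
    hG H₀ hrows hcols
  simp only [blowUp_eq]
  exact two_by_two_master H₀ c hc h

end Vale.Agent.Results.P037.TwoByTwo
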